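import Vale.Agent.P223.H367.Pol
import Vale.Agent.P223.H566.Chd
import Vale.Agent.P223.H316.Liou2

/-! Stage 4, block T5b : the theorem `specChd`. -/

namespace Vale.Agent.P223.H367

open scoped ContDiff ENNReal NNReal
open MeasureTheory Set Filter Topology
open Vale.Agent.P223.H765.NC
open Vale.Agent.P223.H566.Chd (chord zero_mem end_mem chord_mono chord_shift isOpen_chord
  isOpen_chord' comp_eq len_pos meas_chord meas_len avg)

variable {n : ℕ}

/-- a bounded open set which is star shaped around `0` is an interval -/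
theorem eq_Ioo {I : Set ℝ} (hI : IsOpen I) (h0 : (0 : ℝ) ∈ I)
    (hc : ∀ s ∈ I, ∀ t ∈ uIcc 0 s, t ∈ I) {R : ℝ} (hR : I ⊆ Ioo (-R) R) :
    ∃ α β, α < 0 ∧ 0 < β ∧ I = Ioo α β := by
  have hne : I.Nonempty := ⟨0, h0⟩
  have ha : BddAbove I := ⟨R, fun x hx => (hR hx).2.le⟩
  have hb : BddBelow I := ⟨-R, fun x hx => (hR hx).1.le⟩
  have key : I = Ioo (sInf I) (sSup I) := by
    apply Subset.antisymm
    · intro x hx
      obtain ⟨ε, hε, hball⟩ := Metric.isOpen_iff.1 hI x hx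
      have h1 : x + ε / 2 ∈ I := hball (by
        rw [Metric.mem_ball, Real.dist_eq, add_sub_cancel_left, abs_of_pos (by positivity)]
        linarith)
      have h2 : x - ε / 2 ∈ I := hball (by
        rw [Metric.mem_ball, Real.dist_eq, sub_sub_cancel_left, abs_neg,
          abs_of_pos (by positivity)]
        linarith)
      have h3 := le_csSup ha h1
      have h4 := csInf_le hb h2
      constructor <;> linarith
    · intro x hx
      rcases le_total 0 x with h | h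
      · obtain ⟨y, hy, hxy⟩ := exists_lt_of_lt_csSup hne hx.2
        exact hc y hy x (by rw [uIcc_of_le (h.trans hxy.le)]; exact ⟨h, hxy.le⟩)
      · obtain ⟨y, hy, hxy⟩ := exists_lt_of_csInf_lt hne hx.1
        exact hc y hy x (by rw [uIcc_of_ge (hxy.le.trans h)]; exact ⟨hxy.le, h⟩)
  refine ⟨sInf I, sSup I, ?_, ?_, key⟩
  · rw [key] at h0; exact h0.1
  · rw [key] at h0; exact h0.2

/-- continuity of the differential of the exponential map -/
theorem cont_fd {Φ : ℝ → J.E n × J.E n → J.E n × J.E n}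
    (hΦ : ContDiff ℝ 1 fun q : ℝ × (J.E n × J.E n) => Φ q.1 q.2) :
    Continuous fun q : ℝ × (J.E n × J.E n) =>
      (fderiv ℝ (fun p => (Φ q.1 (q.2.1, p)).1) q.2.2) := by
  have hc := hΦ.continuous_fderiv one_ne_zero
  have key : ∀ q : ℝ × (J.E n × J.E n), fderiv ℝ (fun p => (Φ q.1 (q.2.1, p)).1) q.2.2 =
      (ContinuousLinearMap.fst ℝ (J.E n) (J.E n)).comp
        ((fderiv ℝ (fun q : ℝ × (J.E n × J.E n) => Φ q.1 q.2) q).comp
          ((ContinuousLinearMap.inr ℝ ℝ (J.E n × J.E n)).comp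
            (ContinuousLinearMap.inr ℝ (J.E n) (J.E n)))) := by
    rintro ⟨T, q, p⟩
    have h1 : HasFDerivAt (fun p : J.E n => ((T, (q, p)) : ℝ × (J.E n × J.E n)))
        ((ContinuousLinearMap.inr ℝ ℝ (J.E n × J.E n)).comp
            (ContinuousLinearMap.inr ℝ (J.E n) (J.E n))) p :=
      (hasFDerivAt_prodMk_right T (q, p)).comp p (hasFDerivAt_prodMk_right q p)
    have h2 := (hΦ.differentiable one_ne_zero (T, (q, p))).hasFDerivAt
    have h3 := (h2.comp p h1).fst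
    exact h3.fderiv
  simp only [key]
  fun_prop

theorem cont_bb {G : J.Mtx n} {Φ : ℝ → J.E n × J.E n → J.E n × J.E n}
    (hG : ∀ i j, ContDiff ℝ ∞ fun x => G x i j)
    (hΦ : ContDiff ℝ 1 fun q : ℝ × (J.E n × J.E n) => Φ q.1 q.2) :
    Continuous fun q : ℝ × (J.E n × J.E n) => bb G Φ q.1 q.2 := by
  have h1 := cont_dens hG
  unfold bb
  refine (ContinuousLinearMap.continuous_det.comp (cont_fd hΦ)).abs.mul
    ((h1.comp (continuous_fst.comp hΦ.continuous)).mul
      (h1.comp (continuous_fst.comp continuous_snd)))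

/-- the inner integral of `SpecPol` -/
noncomputable def HH (G : J.Mtx n) (Φ : ℝ → J.E n × J.E n → J.E n × J.E n) (Ω : Set (J.E n))
    (z : J.E n × J.E n) : ℝ≥0∞ :=
  ∫⁻ T in Ioi (0 : ℝ), (chord Φ {z | z.1 ∈ Ω} z).indicator
    (fun T => ENNReal.ofReal (bb G Φ T z / T)) T

theorem meas_HH {G : J.Mtx n} {Φ : ℝ → J.E n × J.E n → J.E n × J.E n} {Ω : Set (J.E n)}
    (hG : ∀ i j, ContDiff ℝ ∞ fun x => G x i j)
    (hΦ : ContDiff ℝ 1 fun q : ℝ × (J.E n × J.E n) => Φ q.1 q.2) (hΩ : IsOpen Ω) :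
    Measurable (HH G Φ Ω) := by
  have hU : IsOpen {z : J.E n × J.E n | z.1 ∈ Ω} := hΩ.preimage continuous_fst
  have h1 := meas_chord hΦ.continuous hU
  have h2 : Measurable fun x : (J.E n × J.E n) × ℝ =>
      {q : ℝ × (J.E n × J.E n) | q.1 ∈ chord Φ {z | z.1 ∈ Ω} q.2}.indicator
        (fun q => ENNReal.ofReal (bb G Φ q.1 q.2 / q.1)) (x.2, x.1) := by
    refine Measurable.comp (g := {q : ℝ × (J.E n × J.E n) |
      q.1 ∈ chord Φ {z | z.1 ∈ Ω} q.2}.indicator
        (fun q => ENNReal.ofReal (bb G Φ q.1 q.2 / q.1))) ?_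
      (measurable_snd.prodMk measurable_fst)
    refine Measurable.indicator ?_ h1
    exact ENNReal.measurable_ofReal.comp ((cont_bb hG hΦ).measurable.div measurable_fst)
  exact h2.lintegral_prod_right'

/-- the integral of `HH` over a chord -/
theorem HH_chord {G : J.Mtx n} {Φ : ℝ → J.E n × J.E n → J.E n × J.E n} {Ω : Set (J.E n)}
    (hadd : ∀ s t z, Φ (s + t) z = Φ s (Φ t z)) {z : J.E n × J.E n} {α β : ℝ}
    (hI : chord Φ {z | z.1 ∈ Ω} z = Ioo α β) :
    ∫⁻ s in chord Φ {z | z.1 ∈ Ω} z, HH G Φ Ω (Φ s z) =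
      ∫⁻ s in Ioo α β, ∫⁻ t in Ioo s β, ENNReal.ofReal (bb G Φ (t - s) (Φ s z) / (t - s)) := by
  rw [hI]
  apply setLIntegral_congr_fun measurableSet_Ioo
  intro s hs
  beta_reduce
  have hs' : s ∈ chord Φ {z | z.1 ∈ Ω} z := by rw [hI]; exact hs
  have h1 : ∀ T ∈ Ioi (0 : ℝ), (chord Φ {z | z.1 ∈ Ω} (Φ s z)).indicator
      (fun T => ENNReal.ofReal (bb G Φ T (Φ s z) / T)) T =
      (Ioo 0 (β - s)).indicator (fun T => ENNReal.ofReal (bb G Φ T (Φ s z) / T)) T := by
    intro T hT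
    have hT' : 0 < T := hT
    have h2 : T ∈ chord Φ {z | z.1 ∈ Ω} (Φ s z) ↔ T ∈ Ioo 0 (β - s) := by
      rw [chord_shift hadd hs', hI, mem_Ioo, mem_Ioo]
      have := hs.1
      constructor
      · rintro ⟨a, b⟩
        exact ⟨hT', by linarith⟩
      · rintro ⟨a, b⟩
        constructor <;> linarith
    by_cases h : T ∈ Ioo 0 (β - s)
    · rw [indicator_of_mem h, indicator_of_mem (h2.2 h)]
    · rw [indicator_of_notMem h, indicator_of_notMem fun h' => h (h2.1 h')]
  rw [HH, setLIntegral_congr_fun measurableSet_Ioi h1, setLIntegral_indicator measurableSet_Ioo,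
    inter_eq_left.2 Ioo_subset_Ioi_self, ← lintegral_indicator measurableSet_Ioo,
    ← lintegral_indicator measurableSet_Ioo, ← lintegral_sub_right_eq_self _ s]
  apply lintegral_congr
  intro t
  by_cases h : t ∈ Ioo s β
  · rw [indicator_of_mem h, indicator_of_mem
      (show t - s ∈ Ioo 0 (β - s) from ⟨by linarith [h.1], by linarith [h.2]⟩)]
  · rw [indicator_of_notMem h, indicator_of_notMem fun h' => h
      ⟨by linarith [h'.1], by linarith [h'.2]⟩]

theorem ham_zero (G : J.Mtx n) (q : J.E n) : ham G (q, 0) = 0 := by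
  simp [ham]

/-- BLOCK T5b. -/
theorem specChd (hK : SpecKaz) : SpecChd := by
  intro n hn
  obtain ⟨C, hC, hKaz⟩ := hK n hn
  refine ⟨(Real.log 2 / C).toNNReal, fun G Φ hg Ω hΩ hb => ?_⟩
  obtain ⟨hΦ, hadd, -⟩ := H316.specFlow' (J.E n × J.E n) (hv G) Φ
    (H316.hv_smooth hg.smooth hg.pos) hg.zero hg.flow
  obtain ⟨hmp, hen, -, -⟩ := H316.specLiou n G Φ hg
  have hU : IsOpen {z : J.E n × J.E n | z.1 ∈ Ω} := hΩ.preimage continuous_fst
  have hS : MeasurableSet (shl G) := by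
    have h1 : Measurable fun z => 2 * ham G z :=
      (continuous_const.mul (H316.ham_smooth hg.smooth hg.pos).continuous).measurable
    exact (measurableSet_lt measurable_const h1).inter (measurableSet_le h1 measurable_const)
  have hSi : ∀ t z, Φ t z ∈ shl G ↔ z ∈ shl G := by
    intro t z
    simp only [shl, mem_ofPred_eq, hen]
  have hlen : ∀ z, len Φ Ω z = H566.Chd.len Φ {z | z.1 ∈ Ω} z := by
    intro z
    exact congrArg volume (comp_eq hg.zero {z : J.E n × J.E n | z.1 ∈ Ω} z)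
  have hint : ∀ z ∈ shl G ∩ {z | z.1 ∈ Ω}, ∃ α β, α < 0 ∧ 0 < β ∧
      chord Φ {z | z.1 ∈ Ω} z = Ioo α β := by
    intro z hz
    have hz2 : z.2 ≠ 0 := by
      intro h
      have h1 : z = (z.1, 0) := Prod.ext rfl h
      have h2 := hz.1.1
      rw [h1, ham_zero] at h2
      norm_num at h2
    obtain ⟨R, hR⟩ := hg.proper z hz2 (closure Ω) hb.isCompact_closure
    refine eq_Ioo (R := R) (isOpen_chord' hΦ.continuous hU z) (zero_mem (hg.zero z) hz.2)
      (fun s hs t ht => chord_mono hs ht) fun t ht => ?_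
    by_contra hc
    apply hR t _ (subset_closure (end_mem ht))
    by_contra h
    exact hc (abs_lt.1 (not_le.1 h))
  have hfin : ∀ z ∈ shl G ∩ {z | z.1 ∈ Ω}, H566.Chd.len Φ {z | z.1 ∈ Ω} z ≠ ⊤ := by
    intro z hz
    obtain ⟨α, β, -, -, h⟩ := hint z hz
    rw [H566.Chd.len, h, Real.volume_Ioo]
    exact ENNReal.ofReal_ne_top
  have hav := avg (μ := volume) hΦ.continuous hg.zero hadd hmp hU hS hSi hfin
    (meas_HH hg.smooth hΦ hΩ)
  have hHH : ∀ z, HH G Φ Ω z = ∫⁻ T in Ioi (0 : ℝ), {T : ℝ | ∀ t ∈ Icc 0 T, (Φ t z).1 ∈ Ω}.indicator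
      (fun T => ENNReal.ofReal (bb G Φ T z / T)) T := by
    intro z
    apply setLIntegral_congr_fun measurableSet_Ioi
    intro T hT
    have hT' : 0 < T := hT
    have h2 : T ∈ chord Φ {z | z.1 ∈ Ω} z ↔ T ∈ {T : ℝ | ∀ t ∈ Icc 0 T, (Φ t z).1 ∈ Ω} := by
      unfold chord
      rw [mem_ofPred_eq, uIcc_of_le hT'.le]
      rfl
    by_cases h : T ∈ {T : ℝ | ∀ t ∈ Icc 0 T, (Φ t z).1 ∈ Ω}
    · rw [indicator_of_mem h, indicator_of_mem (h2.2 h)]
    · rw [indicator_of_notMem h, indicator_of_notMem fun h' => h (h2.1 h')]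
  have hC0 : ENNReal.ofReal C ≠ 0 := by
    rw [Ne, ENNReal.ofReal_eq_zero, not_le]
    exact hC
  have main : ENNReal.ofReal C * ∫⁻ z in shl G ∩ {z | z.1 ∈ Ω}, len Φ Ω z ^ n ≤
      ENNReal.ofReal (Real.log 2) * vol G Ω ^ 2 := by
    calc ENNReal.ofReal C * ∫⁻ z in shl G ∩ {z | z.1 ∈ Ω}, len Φ Ω z ^ n
        = ∫⁻ z in shl G ∩ {z | z.1 ∈ Ω}, ENNReal.ofReal C * len Φ Ω z ^ n := by
          rw [lintegral_const_mul']
          exact ENNReal.ofReal_ne_top
      _ ≤ ∫⁻ z in shl G ∩ {z | z.1 ∈ Ω}, ((H566.Chd.len Φ {z | z.1 ∈ Ω} z)⁻¹ *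
            ∫⁻ s in chord Φ {z | z.1 ∈ Ω} z, HH G Φ Ω (Φ s z)) := by
          apply setLIntegral_mono' (hS.inter hU.measurableSet)
          intro z hz
          obtain ⟨α, β, ha, hb', h⟩ := hint z hz
          have hl : H566.Chd.len Φ {z | z.1 ∈ Ω} z = ENNReal.ofReal (β - α) := by
            rw [H566.Chd.len, h, Real.volume_Ioo]
          have hl0 := len_pos hΦ.continuous hg.zero hU hz.2
          have hlt := hfin z hz
          rw [HH_chord hadd h]
          calc ENNReal.ofReal C * len Φ Ω z ^ n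
              = (H566.Chd.len Φ {z | z.1 ∈ Ω} z)⁻¹ *
                  ENNReal.ofReal (C * (β - α) ^ (n + 1)) := by
                rw [ENNReal.ofReal_mul hC.le, ENNReal.ofReal_pow (by linarith), ← hl, hlen,
                  pow_succ]
                set ℓ := H566.Chd.len Φ {z | z.1 ∈ Ω} z
                calc ENNReal.ofReal C * ℓ ^ n = ENNReal.ofReal C * ℓ ^ n * (ℓ⁻¹ * ℓ) := by
                      rw [ENNReal.inv_mul_cancel hl0.ne' hlt, mul_one]
                  _ = ℓ⁻¹ * (ENNReal.ofReal C * (ℓ ^ n * ℓ)) := by ring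
            _ ≤ _ := by
                gcongr
                exact hKaz G Φ hg z α β (by linarith)
      _ = ∫⁻ z in shl G ∩ {z | z.1 ∈ Ω}, HH G Φ Ω z := hav
      _ ≤ ∫⁻ z in shl G, HH G Φ Ω z := lintegral_mono_set inter_subset_left
      _ ≤ ENNReal.ofReal (Real.log 2) * vol G Ω ^ 2 := by
          simp only [hHH]
          exact specPol H316.specLiou n G Φ hn hg Ω hΩ
  calc ∫⁻ z in shl G ∩ {z | z.1 ∈ Ω}, len Φ Ω z ^ n
      = (ENNReal.ofReal C)⁻¹ * (ENNReal.ofReal C *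
          ∫⁻ z in shl G ∩ {z | z.1 ∈ Ω}, len Φ Ω z ^ n) := by
        rw [← mul_assoc, ENNReal.inv_mul_cancel hC0 ENNReal.ofReal_ne_top, one_mul]
    _ ≤ (ENNReal.ofReal C)⁻¹ * (ENNReal.ofReal (Real.log 2) * vol G Ω ^ 2) := by gcongr
    _ = ((Real.log 2 / C).toNNReal : ℝ≥0∞) * vol G Ω ^ 2 := by
        have h1 : ((Real.log 2 / C).toNNReal : ℝ≥0∞) = ENNReal.ofReal (Real.log 2 / C) := rfl
        rw [h1, ENNReal.ofReal_div_of_pos hC, div_eq_mul_inv]
        ring

end Vale.Agent.P223.H367
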