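import Vale.Agent.P223.H367.Polar
import Mathlib.MeasureTheory.Function.Jacobian
import Mathlib.Analysis.Matrix.PosDef

/-! Stage 4, block T5a : the theorem `specPol`. -/

namespace Vale.Agent.P223.H367

open scoped ContDiff ENNReal NNReal
open MeasureTheory Set Filter Topology
open Vale.Agent.P223.H765.NC

variable {n : ℕ}

theorem det_smul_clm (c : ℝ) (A : J.E n →L[ℝ] J.E n) : (c • A).det = c ^ n * A.det := by
  have h := LinearMap.det_smul c (A : J.E n →ₗ[ℝ] J.E n)
  have h3 : Module.finrank ℝ (J.E n) = n := by simp
  rw [h3] at h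
  exact h

/-- a map with invertible differential is differentiable -/
theorem diff_of_det (hn : 1 ≤ n) {f : J.E n → J.E n} {p : J.E n}
    (h : (fderiv ℝ f p).det ≠ 0) : DifferentiableAt ℝ f p := by
  by_contra hc
  apply h
  rw [fderiv_zero_of_not_differentiableAt hc]
  have h1 := det_smul_clm (n := n) 0 0
  rw [zero_smul, zero_pow (by omega), zero_mul] at h1
  exact h1

/-- the Riemannian density is continuous -/
theorem cont_dens {G : J.Mtx n} (hG : ∀ i j, ContDiff ℝ ∞ fun x => G x i j) :
    Continuous fun x => √(G x).det := by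
  have : Continuous G := continuous_matrix fun i j => (hG i j).continuous
  exact Real.continuous_sqrt.comp this.matrix_det

theorem ham_smul (G : J.Mtx n) (c : ℝ) (q p : J.E n) :
    ham G (q, c • p) = c ^ 2 * ham G (q, p) := by
  simp only [ham, Finset.mul_sum, Pi.smul_apply, smul_eq_mul]
  refine Finset.sum_congr rfl fun i _ => Finset.sum_congr rfl fun j _ => ?_
  ring

theorem ham_pos {G : J.Mtx n} {q p : J.E n} (hG : (G q).PosDef) (hp : p ≠ 0) :
    0 < ham G (q, p) := by
  have h1 := hG.inv.dotProduct_mulVec_pos hp
  have h2 : ham G (q, p) = 1 / 2 * (star p ⬝ᵥ ((G q)⁻¹.mulVec p)) := by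
    simp only [ham, dotProduct, Matrix.mulVec, Pi.star_apply, star_trivial, Finset.mul_sum]
    refine Finset.sum_congr rfl fun i _ => Finset.sum_congr rfl fun j _ => ?_
    ring
  rw [h2]
  positivity

theorem cont_ham_p (G : J.Mtx n) (q : J.E n) : Continuous fun p => ham G (q, p) := by
  simp only [ham]
  refine continuous_const.mul (continuous_finsetSum _ fun i _ => continuous_finsetSum _ fun j _ =>
    (continuous_const.mul (continuous_apply i)).mul (continuous_apply j))

/-- The integral over one fibre. -/
theorem pol_fibre (hL : SpecLiou) {G : J.Mtx n} {Φ : ℝ → J.E n × J.E n → J.E n × J.E n}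
    (hn : 1 ≤ n) (hg : Geo G Φ) {Ω : Set (J.E n)} (hΩ : IsOpen Ω) (q : J.E n) :
    ∫⁻ p, (shl G).indicator (fun z => ∫⁻ T in Ioi (0 : ℝ),
      {T : ℝ | ∀ t ∈ Icc 0 T, (Φ t z).1 ∈ Ω}.indicator
        (fun T => ENNReal.ofReal (bb G Φ T z / T)) T) (q, p) ≤
      Ω.indicator (fun q => ENNReal.ofReal (Real.log 2) * (ENNReal.ofReal √(G q).det * vol G Ω))
        q := by
  obtain ⟨-, -, hsc, -⟩ := hL n G Φ hg
  by_cases hq : q ∈ Ω
  swap
  · rw [indicator_of_notMem hq, nonpos_iff_eq_zero]
    rw [← lintegral_zero (μ := (volume : Measure (J.E n)))]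
    apply lintegral_congr
    intro p
    by_cases hp : (q, p) ∈ shl G
    · rw [indicator_of_mem hp, ← lintegral_zero (μ := volume.restrict (Ioi (0 : ℝ)))]
      apply setLIntegral_congr_fun measurableSet_Ioi
      intro T hT
      have hT' : 0 < T := hT
      apply indicator_of_notMem
      intro h
      have := h 0 ⟨le_rfl, hT'.le⟩
      rw [hg.zero] at this
      exact hq this
    · rw [indicator_of_notMem hp]
  rw [indicator_of_mem hq]
  set ψ : J.E n → J.E n := fun p => (Φ 1 (q, p)).1 with hψ
  have hψT : ∀ T p, (Φ T (q, p)).1 = ψ (T • p) := by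
    intro T p
    have h1 := hsc 1 T q p
    rw [mul_one] at h1
    rw [hψ]
    simp only
    rw [h1]
  have hd : Differentiable ℝ ψ := fun p => diff_of_det hn (hg.imm q p)
  have hdens := cont_dens hg.smooth
  set F : J.E n → ℝ≥0∞ := fun p => Ω.indicator 1 (ψ p) *
    ENNReal.ofReal (|(fderiv ℝ ψ p).det| * (√(G (ψ p)).det * √(G q).det)) with hF
  have hFm : Measurable F := by
    apply Measurable.mul
    · exact (measurable_one.indicator hΩ.measurableSet).comp hd.continuous.measurable
    · apply ENNReal.measurable_ofReal.comp
      apply Measurable.mul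
      · have h2 : Measurable fun p => (fderiv ℝ ψ p).det :=
          (ContinuousLinearMap.continuous_det.measurable).comp (measurable_fderiv ℝ ψ)
        exact measurable_norm.comp h2
      · exact ((hdens.comp hd.continuous).mul continuous_const).measurable
  have hset : ∀ p, ((q, p) ∈ shl G) ↔ p ∈ {p | 1 / 4 < 2 * ham G (q, p) ∧ 2 * ham G (q, p) ≤ 1} :=
    fun p => Iff.rfl
  have hNm : Measurable fun p => 2 * ham G (q, p) :=
    (continuous_const.mul (cont_ham_p G q)).measurable
  have hSm : MeasurableSet {p : J.E n | 1 / 4 < 2 * ham G (q, p) ∧ 2 * ham G (q, p) ≤ 1} :=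
    (measurableSet_lt measurable_const hNm).inter (measurableSet_le hNm measurable_const)
  calc ∫⁻ p, (shl G).indicator (fun z => ∫⁻ T in Ioi (0 : ℝ),
        {T : ℝ | ∀ t ∈ Icc 0 T, (Φ t z).1 ∈ Ω}.indicator
          (fun T => ENNReal.ofReal (bb G Φ T z / T)) T) (q, p)
      ≤ ∫⁻ p, {p | 1 / 4 < 2 * ham G (q, p) ∧ 2 * ham G (q, p) ≤ 1}.indicator (fun p =>
          ∫⁻ T in Ioi (0 : ℝ), F (T • p) * ENNReal.ofReal (T ^ n / T)) p := by
        apply lintegral_mono
        intro p
        beta_reduce
        by_cases hp : (q, p) ∈ shl G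
        · rw [indicator_of_mem hp, indicator_of_mem ((hset p).1 hp)]
          apply setLIntegral_mono' measurableSet_Ioi
          intro T hT
          have hT' : 0 < T := hT
          by_cases hm : T ∈ {T : ℝ | ∀ t ∈ Icc 0 T, (Φ t (q, p)).1 ∈ Ω}
          · rw [indicator_of_mem hm]
            have h3 : ψ (T • p) ∈ Ω := by
              rw [← hψT]
              exact hm T ⟨hT'.le, le_rfl⟩
            rw [hF]
            simp only
            rw [indicator_of_mem h3, Pi.one_apply, one_mul, ← ENNReal.ofReal_mul (by positivity)]
            apply ENNReal.ofReal_le_ofReal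
            apply le_of_eq
            rw [bb]
            simp only [hψT]
            have h4 : fderiv ℝ (fun p => ψ (T • p)) p = T • fderiv ℝ ψ (T • p) :=
              fderiv_comp_smul (f := ψ) (x := p) T
            rw [h4, det_smul_clm, abs_mul, abs_of_pos (show (0 : ℝ) < T ^ n by positivity)]
            ring
          · rw [indicator_of_notMem hm]
            exact zero_le
        · rw [indicator_of_notMem hp]
          exact zero_le
    _ = ENNReal.ofReal (Real.log 2) * ∫⁻ p, F p := by
        rw [lintegral_indicator hSm]
        refine polar hn hNm ?_ ?_ hFm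
        · intro c p
          rw [ham_smul]
          ring
        · intro p hp
          have := ham_pos (G := G) (hg.pos q) hp
          positivity
    _ ≤ ENNReal.ofReal (Real.log 2) * (ENNReal.ofReal √(G q).det * vol G Ω) := by
        gcongr
        have h5 : ∀ p, F p = ENNReal.ofReal |(fderiv ℝ ψ p).det| *
            (fun y => Ω.indicator (1 : J.E n → ℝ≥0∞) y *
              (ENNReal.ofReal √(G y).det * ENNReal.ofReal √(G q).det)) (ψ p) := by
          intro p
          rw [hF]
          simp only
          rw [ENNReal.ofReal_mul (abs_nonneg _), ENNReal.ofReal_mul (Real.sqrt_nonneg _)]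
          ring
        have h6 := lintegral_image_eq_lintegral_abs_det_fderiv_mul (volume : Measure (J.E n))
          MeasurableSet.univ (f := ψ) (f' := fderiv ℝ ψ)
          (fun x _ => (hd x).hasFDerivAt.hasFDerivWithinAt) ((hg.inj q).injOn)
          (fun y => Ω.indicator (1 : J.E n → ℝ≥0∞) y *
              (ENNReal.ofReal √(G y).det * ENNReal.ofReal √(G q).det))
        rw [Measure.restrict_univ] at h6
        simp only [h5]
        rw [← h6]
        refine (setLIntegral_le_lintegral _ _).trans ?_
        have h7 : ∀ y, Ω.indicator (1 : J.E n → ℝ≥0∞) y *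
            (ENNReal.ofReal √(G y).det * ENNReal.ofReal √(G q).det) =
            ENNReal.ofReal √(G q).det * Ω.indicator (fun y => ENNReal.ofReal √(G y).det) y := by
          intro y
          by_cases hy : y ∈ Ω
          · rw [indicator_of_mem hy, indicator_of_mem hy, Pi.one_apply]
            ring
          · rw [indicator_of_notMem hy, indicator_of_notMem hy]
            ring
        simp only [h7]
        have h8 : Measurable fun y => Ω.indicator (fun y => ENNReal.ofReal √(G y).det) y :=
          (ENNReal.measurable_ofReal.comp hdens.measurable).indicator hΩ.measurableSet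
        rw [lintegral_const_mul _ h8, lintegral_indicator hΩ.measurableSet]
        exact le_rfl

/-- BLOCK T5a. -/
theorem specPol (hL : SpecLiou) : SpecPol := by
  intro n G Φ hn hg Ω hΩ
  have hdens := cont_dens hg.smooth
  have hGi : Continuous fun x => (G x)⁻¹ := by
    have h1 : Continuous G := continuous_matrix fun i j => (hg.smooth i j).continuous
    have h2 : (fun x => (G x)⁻¹) = fun x => (G x).det⁻¹ • (G x).adjugate := by
      funext x
      rw [Matrix.inv_def, Ring.inverse_eq_inv']
    rw [h2]
    exact (h1.matrix_det.inv₀ fun x => (hg.pos x).det_pos.ne').smul h1.matrix_adjugate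
  have hham : Continuous (ham G) := by
    have h1 : ∀ i j, Continuous fun z : J.E n × J.E n => (G z.1)⁻¹ i j := fun i j =>
      (hGi.comp continuous_fst).matrix_elem i j
    have h2 : ham G = fun z => 1 / 2 * ∑ i, ∑ j, (G z.1)⁻¹ i j * z.2 i * z.2 j := rfl
    rw [h2]
    refine continuous_const.mul (continuous_finsetSum _ fun i _ => continuous_finsetSum _
      fun j _ => ((h1 i j).mul ?_).mul ?_)
    · exact (continuous_apply i).comp continuous_snd
    · exact (continuous_apply j).comp continuous_snd
  have hshl : MeasurableSet (shl G) := by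
    have h1 : Measurable fun z => 2 * ham G z := (continuous_const.mul hham).measurable
    exact (measurableSet_lt measurable_const h1).inter (measurableSet_le h1 measurable_const)
  rw [← lintegral_indicator hshl, Measure.volume_eq_prod]
  refine (lintegral_prod_le _).trans ?_
  calc _ ≤ ∫⁻ q, Ω.indicator (fun q => ENNReal.ofReal (Real.log 2) *
        (ENNReal.ofReal √(G q).det * vol G Ω)) q :=
        lintegral_mono fun q => pol_fibre hL hn hg hΩ q
    _ = ENNReal.ofReal (Real.log 2) * vol G Ω ^ 2 := by
        have hm : Measurable fun q => ENNReal.ofReal √(G q).det :=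
          ENNReal.measurable_ofReal.comp hdens.measurable
        rw [lintegral_indicator hΩ.measurableSet, lintegral_const_mul _ (hm.mul_const _),
          lintegral_mul_const _ hm, sq]
        rfl
    _ ≤ _ := le_rfl

end Vale.Agent.P223.H367
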