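import Vale.Agent.P223.H765.NC
import Mathlib.Analysis.SpecialFunctions.Integrals.Basic

/-! Stage 4, block T5a : integration in polar coordinates. -/

namespace Vale.Agent.P223.H367

open scoped ContDiff ENNReal NNReal
open MeasureTheory Set Filter Topology

variable {n : ℕ}

/-- scaling of the Lebesgue integral -/
theorem lint_smul {T : ℝ} (hT : 0 < T) {f : J.E n → ℝ≥0∞} (hf : Measurable f) :
    ∫⁻ p, f (T • p) * ENNReal.ofReal (T ^ n) = ∫⁻ p, f p := by
  have h1 := Measure.map_addHaar_smul (volume : Measure (J.E n)) hT.ne'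
  have h2 : ∫⁻ p, f p ∂(Measure.map (T • ·) (volume : Measure (J.E n))) = ∫⁻ p, f (T • p) :=
    lintegral_map hf (measurable_const_smul T)
  rw [h1, lintegral_smul_measure] at h2
  have hm : Measurable fun p => f (T • p) := hf.comp (measurable_const_smul T)
  rw [lintegral_mul_const _ hm, ← h2]
  have h3 : Module.finrank ℝ (J.E n) = n := by simp
  rw [h3, smul_eq_mul, mul_comm, ← mul_assoc, ← ENNReal.ofReal_mul (by positivity)]
  have h4 : T ^ n * |(T ^ n)⁻¹| = 1 := by
    rw [abs_of_pos (by positivity)]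
    exact mul_inv_cancel₀ (by positivity)
  rw [h4, ENNReal.ofReal_one, one_mul]

/-- the logarithmic length of `[a, 2a)` -/
theorem lint_inv {a : ℝ} (ha : 0 < a) :
    ∫⁻ T in Ico a (2 * a), ENNReal.ofReal (1 / T) = ENNReal.ofReal (Real.log 2) := by
  have h1 : ∫ T in a..(2 * a), 1 / T = Real.log 2 := by
    rw [integral_one_div_of_pos ha (by positivity)]
    congr 1
    field_simp
  have hi : IntervalIntegrable (fun T : ℝ => 1 / T) volume a (2 * a) := by
    apply ContinuousOn.intervalIntegrable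
    rw [uIcc_of_le (by linarith)]
    apply ContinuousOn.div continuousOn_const continuousOn_id
    intro x hx
    have := hx.1
    simp only [id]
    exact (by linarith : (0 : ℝ) < x).ne'
  rw [intervalIntegral.integral_of_le (by linarith)] at h1
  rw [intervalIntegrable_iff_integrableOn_Ioc_of_le (by linarith)] at hi
  rw [← h1, ofReal_integral_eq_lintegral_ofReal hi, setLIntegral_congr Ico_ae_eq_Ioc]
  filter_upwards [ae_restrict_mem measurableSet_Ioc] with x hx
  have := hx.1
  simp only [Pi.zero_apply]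
  exact one_div_nonneg.2 (by linarith)

/-- polar coordinates in `ℝ^n` with respect to a quadratic form -/
theorem polar (hn : 1 ≤ n) {N : J.E n → ℝ} (hN : Measurable N)
    (hNs : ∀ (c : ℝ) p, N (c • p) = c ^ 2 * N p) (hNp : ∀ p, p ≠ 0 → 0 < N p)
    {F : J.E n → ℝ≥0∞} (hF : Measurable F) :
    ∫⁻ p in {p | 1 / 4 < N p ∧ N p ≤ 1}, ∫⁻ T in Ioi (0 : ℝ),
      F (T • p) * ENNReal.ofReal (T ^ n / T) = ENNReal.ofReal (Real.log 2) * ∫⁻ p, F p := by
  set S : Set (J.E n) := {p | 1 / 4 < N p ∧ N p ≤ 1} with hS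
  have hSm : MeasurableSet S :=
    (measurableSet_lt measurable_const hN).inter (measurableSet_le hN measurable_const)
  have hsm : Measurable fun x : J.E n × ℝ => x.2 • x.1 := measurable_snd.smul measurable_fst
  have hm1 : Measurable fun x : J.E n × ℝ => F (x.2 • x.1) * ENNReal.ofReal (x.2 ^ n / x.2) :=
    (hF.comp hsm).mul (by fun_prop)
  rw [lintegral_lintegral_swap (hm1.aemeasurable)]
  -- for fixed `T`
  have h1 : ∀ T ∈ Ioi (0 : ℝ), ∫⁻ p in S, F (T • p) * ENNReal.ofReal (T ^ n / T) =
      ∫⁻ p, (S.indicator 1 (T⁻¹ • p) * F p) * ENNReal.ofReal (1 / T) := by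
    intro T hT
    have hT' : 0 < T := hT
    have hmeas : Measurable fun p : J.E n =>
        (S.indicator (1 : J.E n → ℝ≥0∞) (T⁻¹ • p) * F p) * ENNReal.ofReal (1 / T) :=
      (((measurable_one.indicator hSm).comp (measurable_const_smul T⁻¹)).mul hF).mul_const _
    rw [← lint_smul hT' hmeas, ← lintegral_indicator hSm]
    apply lintegral_congr
    intro p
    rw [inv_smul_smul₀ hT'.ne']
    by_cases hp : p ∈ S
    · rw [indicator_of_mem hp, indicator_of_mem hp, Pi.one_apply, one_mul, mul_assoc,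
        ← ENNReal.ofReal_mul (by positivity)]
      congr 2
      ring
    · rw [indicator_of_notMem hp, indicator_of_notMem hp]
      simp
  rw [setLIntegral_congr_fun measurableSet_Ioi h1]
  have hm2 : Measurable fun x : ℝ × J.E n =>
      (S.indicator (1 : J.E n → ℝ≥0∞) (x.1⁻¹ • x.2) * F x.2) * ENNReal.ofReal (1 / x.1) := by
    have : Measurable fun x : ℝ × J.E n => x.1⁻¹ • x.2 := (measurable_fst.inv).smul measurable_snd
    exact (((measurable_one.indicator hSm).comp this).mul (hF.comp measurable_snd)).mul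
      (by fun_prop)
  rw [lintegral_lintegral_swap (hm2.aemeasurable), ← lintegral_const_mul _ hF]
  have h0 : ∀ᵐ p : J.E n, p ≠ 0 := by
    haveI : Nonempty (Fin n) := ⟨⟨0, hn⟩⟩
    exact Measure.ae_ne volume 0
  apply lintegral_congr_ae
  filter_upwards [h0] with p hp
  -- for fixed `p`
  have hpos := hNp p hp
  set a : ℝ := √(N p) with ha
  have hap : 0 < a := Real.sqrt_pos.2 hpos
  have ha2 : a ^ 2 = N p := Real.sq_sqrt hpos.le
  have h2 : ∀ T ∈ Ioi (0 : ℝ), (S.indicator (1 : J.E n → ℝ≥0∞) (T⁻¹ • p) * F p) *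
      ENNReal.ofReal (1 / T) =
      (Ico a (2 * a)).indicator (fun T => ENNReal.ofReal (1 / T)) T * F p := by
    intro T hT
    have hT' : 0 < T := hT
    have hiff : T⁻¹ • p ∈ S ↔ T ∈ Ico a (2 * a) := by
      rw [hS, mem_ofPred_eq, hNs, ← ha2, mem_Ico, inv_pow]
      have e : (T ^ 2)⁻¹ * a ^ 2 = (a / T) ^ 2 := by rw [div_pow]; ring
      rw [e]
      have h3 : 0 < a / T := by positivity
      constructor
      · rintro ⟨h4, h5⟩
        have h6 : a / T ≤ 1 := by nlinarith
        have h7 : 1 / 2 < a / T := by nlinarith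
        rw [div_le_one hT'] at h6
        rw [lt_div_iff₀ hT'] at h7
        exact ⟨h6, by linarith⟩
      · rintro ⟨h4, h5⟩
        have h6 : a / T ≤ 1 := by rw [div_le_one hT']; exact h4
        have h7 : 1 / 2 < a / T := by rw [lt_div_iff₀ hT']; linarith
        constructor <;> nlinarith
    by_cases hm : T ∈ Ico a (2 * a)
    · rw [indicator_of_mem hm, indicator_of_mem (hiff.2 hm), Pi.one_apply, one_mul, mul_comm]
    · rw [indicator_of_notMem hm, indicator_of_notMem (fun h => hm (hiff.1 h))]
      simp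
  rw [setLIntegral_congr_fun measurableSet_Ioi h2]
  have hm3 : Measurable ((Ico a (2 * a)).indicator fun T : ℝ => ENNReal.ofReal (1 / T)) :=
    Measurable.indicator (by fun_prop) measurableSet_Ico
  rw [lintegral_mul_const _ hm3, setLIntegral_indicator measurableSet_Ico]
  have h5 : Ico a (2 * a) ∩ Ioi 0 = Ico a (2 * a) :=
    inter_eq_left.2 fun x hx => lt_of_lt_of_le hap hx.1
  rw [h5, lint_inv hap]

end Vale.Agent.P223.H367
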